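import Vale.Agent.P208.Main

open Vale.Agent.P208

/-- The following are equivalent.
1. Every doubling subset of `ℓ²` admits a bi-Lipschitz embedding into some `ℝ^k` (Question 1).
2. The strong form: `k` and the distortion `D` can be chosen depending on the doubling constant
   alone.
3. The strong form for finite subsets of `ℓ²`.
4. Question 1 for the doubling sets containing `0` which have only finitely many points outside
   each ball around `0` (countable compact sets with at most one accumulation point). -/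
theorem Vale.Agent.Results.P208.UniformForm.result : List.TFAE [
    ∀ X : Set L2, Doubling X → ∃ (k : ℕ) (D : ℝ), EmbedsWith X k D,
    ∀ L : ℕ, ∃ (k : ℕ) (D : ℝ), ∀ X : Set L2, DoublingWith X L → EmbedsWith X k D,
    ∀ L : ℕ, ∃ (k : ℕ) (D : ℝ), ∀ X : Set L2, X.Finite → DoublingWith X L → EmbedsWith X k D,
    ∀ X : Set L2, (0 : L2) ∈ X → (∀ ρ : ℝ, 0 < ρ → {q | q ∈ X ∧ ρ ≤ ‖q‖}.Finite) →
      Doubling X → ∃ (k : ℕ) (D : ℝ), EmbedsWith X k D] := by
  tfae_have 2 → 1 := by
    rintro h X ⟨L, hL⟩
    obtain ⟨k, D, hkD⟩ := h L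
    exact ⟨k, D, hkD X hL⟩
  tfae_have 1 → 4 := fun h X _ _ hX => h X hX
  tfae_have 4 → 3 := fun h L => glue_argument h L
  tfae_have 3 → 2 := by
    intro h L
    obtain ⟨k, D, hkD⟩ := h (L * L)
    exact ⟨k, D, fun X hX => embedsWith_of_finite fun F hF hFX => hkD F hF (hX.subset hFX)⟩
  tfae_finish
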